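/-
helper65 -- S0356 squad (track D), HEDGE copy of leaf S4: the prism over a coordinate facet of
the corner simplex `Tset (Fin n)`, in every dimension.

`sweep (facetS (inl j)) u = {x | x j ∈ [u j, 0] ∧ x - (x j / u j) • u ∈ Tset}` (for `u j < 0`).
Split off the coordinate `j` (`MeasurableEquiv.piFinSuccAbove`), shear the remaining coordinates
(`MeasurePreserving.skew_product`): the prism becomes `[u j, 0] × Tset (Fin (n-1))`.
-/
import Crest.Agent.Helper28.S0356.Defs
import Crest.Agent.Helper97.S0355.Simplex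

set_option autoImplicit false
open MeasureTheory
open scoped ENNReal

namespace Crest.Agent.Helper65.S0356

open Crest.Agent.Helper28.S0355 (sweep Z)
open Crest.Agent.Helper28.S0356

theorem isClosed_Tset (ι : Type) [Fintype ι] : IsClosed (Tset ι) := by
  have h1 : IsClosed {y : ι → ℝ | ∀ i, 0 ≤ y i} := by
    simp only [Set.ofPred_forall]
    exact isClosed_iInter fun i => isClosed_le continuous_const (continuous_apply i)
  have h2 : IsClosed {y : ι → ℝ | ∑ i, y i ≤ 1} :=
    isClosed_le (continuous_finsetSum _ fun i _ => continuous_apply i) continuous_const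
  exact h1.inter h2

theorem mem_Tset_succAbove {m : ℕ} (j : Fin (m + 1)) (z : Fin (m + 1) → ℝ) (hz : z j = 0) :
    z ∈ Tset (Fin (m + 1)) ↔ (fun i => z (j.succAbove i)) ∈ Tset (Fin m) := by
  have e1 : ∑ i, z i = ∑ i, z (j.succAbove i) := by
    rw [Fin.sum_univ_succAbove _ j, hz, zero_add]
  constructor
  · rintro ⟨h0, h1⟩
    exact ⟨fun i => h0 _, e1 ▸ h1⟩
  · rintro ⟨h0, h1⟩
    refine ⟨?_, e1 ▸ h1⟩
    rw [Fin.forall_iff_succAbove j]
    exact ⟨hz.ge, h0⟩

theorem mem_sweep_facetS_inl_iff {m : ℕ} (u : Fin (m + 1) → ℝ) (j : Fin (m + 1)) (hj : u j < 0)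
    (x : Fin (m + 1) → ℝ) :
    x ∈ sweep (facetS (Sum.inl j)) u ↔
      x j ∈ Set.Icc (u j) 0 ∧
        (fun i => x (j.succAbove i) - (x j / u j) * u (j.succAbove i)) ∈ Tset (Fin m) := by
  have hne : u j ≠ 0 := hj.ne
  constructor
  · rintro ⟨t, ⟨ht0, ht1⟩, hK, hl⟩
    have hxj : x j = t * u j := by
      simp only [lcS, bcS, Pi.sub_apply, Pi.smul_apply, smul_eq_mul] at hl
      linarith
    have ht : x j / u j = t := by rw [hxj]; field_simp
    have hz : (x - t • u) j = 0 := by simp [hxj]
    refine ⟨⟨?_, ?_⟩, ?_⟩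
    · rw [hxj]; nlinarith
    · rw [hxj]; nlinarith
    · have := (mem_Tset_succAbove j (x - t • u) hz).1 hK
      rw [ht]
      simpa using this
  · rintro ⟨⟨h1, h2⟩, hT⟩
    have hz : (x - (x j / u j) • u) j = 0 := by
      simp only [Pi.sub_apply, Pi.smul_apply, smul_eq_mul]
      field_simp
      ring
    refine ⟨x j / u j, ⟨div_nonneg_of_nonpos h2 hj.le, ?_⟩, ?_, ?_⟩
    · rw [div_le_one_of_neg hj]; exact h1
    · exact (mem_Tset_succAbove j _ hz).2 (by simpa using hT)
    · simp only [lcS, bcS]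
      rw [hz]; simp

theorem volume_Tset (ι : Type) [Fintype ι] :
    volume (Tset ι) = ENNReal.ofReal (1 / ((Fintype.card ι).factorial : ℝ)) :=
  Crest.Agent.Helper97.S0355.volume_simplex ι

theorem volume_sweep_facetS_inl_succ {m : ℕ} (u : Fin (m + 1) → ℝ) (j : Fin (m + 1))
    (hj : u j < 0) :
    volume (sweep (facetS (Sum.inl j)) u) =
      ENNReal.ofReal (- u j / (m.factorial : ℝ)) := by
  -- the shear of the other coordinates
  have hsh : MeasurePreserving
      (fun p : ℝ × (Fin m → ℝ) => (p.1, p.2 - (p.1 / u j) • (fun i => u (j.succAbove i))))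
      ((volume : Measure ℝ).prod (volume : Measure (Fin m → ℝ)))
      ((volume : Measure ℝ).prod (volume : Measure (Fin m → ℝ))) := by
    refine MeasurePreserving.skew_product
      (g := fun (ξ : ℝ) (y : Fin m → ℝ) => y - (ξ / u j) • (fun i => u (j.succAbove i)))
      (MeasurePreserving.id volume) ?_ ?_
    · exact measurable_snd.sub ((measurable_fst.div_const _).smul_const _)
    · exact Filter.Eventually.of_forall fun ξ => (measurePreserving_sub_right volume _).map_eq
  have he : MeasurePreserving (MeasurableEquiv.piFinSuccAbove (fun _ : Fin (m + 1) => ℝ) j)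
      (volume : Measure (Fin (m + 1) → ℝ))
      ((volume : Measure ℝ).prod (volume : Measure (Fin m → ℝ))) :=
    volume_preserving_piFinSuccAbove (fun _ : Fin (m + 1) => ℝ) j
  have hF := hsh.comp he
  have hset : sweep (facetS (Sum.inl j)) u =
      ((fun p : ℝ × (Fin m → ℝ) => (p.1, p.2 - (p.1 / u j) • (fun i => u (j.succAbove i)))) ∘
        (MeasurableEquiv.piFinSuccAbove (fun _ : Fin (m + 1) => ℝ) j)) ⁻¹'
        (Set.Icc (u j) 0 ×ˢ Tset (Fin m)) := by
    ext x
    rw [mem_sweep_facetS_inl_iff u j hj x]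
    simp only [Set.mem_preimage, Function.comp_apply, Set.mem_prod]
    rfl
  have hmeas : MeasurableSet (Set.Icc (u j) 0 ×ˢ Tset (Fin m)) :=
    measurableSet_Icc.prod (isClosed_Tset _).measurableSet
  rw [hset, hF.measure_preimage hmeas.nullMeasurableSet, Measure.prod_prod, Real.volume_Icc,
    volume_Tset, Fintype.card_fin, ← ENNReal.ofReal_mul (by linarith)]
  congr 1
  ring

/-- Leaf S4 (exact Blueprint signature). -/
theorem volume_sweep_facetS_inl {n : ℕ} (u : Fin n → ℝ) (j : Fin n) (hj : u j < 0) :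
    volume (sweep (facetS (Sum.inl j)) u) =
      ENNReal.ofReal (- u j / ((n - 1).factorial : ℝ)) := by
  obtain ⟨m, rfl⟩ : ∃ m, n = m + 1 := ⟨n - 1, by have := j.pos; omega⟩
  simpa using volume_sweep_facetS_inl_succ u j hj

end Crest.Agent.Helper65.S0356
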